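import Vale.Agent.Lib.P335.Defs

/-!
# A crude bound on the number of realizations

`|Omega d| ≤ 2 ^ (n^2)` and `log |Omega d| ≤ n^2`.
-/

namespace Vale.Agent.Lib.P335.H23

open Finset
open Vale.Agent.Lib.P335
open Classical

theorem card_sym2_fin_le (n : ℕ) : Fintype.card (Sym2 (Fin n)) ≤ n ^ 2 := by
  rw [Sym2.card, Fintype.card_fin]
  have h : (n + 1).choose 2 = n * (n + 1) / 2 := by
    rw [Nat.choose_two_right]
    simp [Nat.mul_comm]
  rw [h]
  rcases Nat.eq_zero_or_pos n with h0 | hpos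
  · subst h0; simp
  · have : n * (n + 1) ≤ 2 * n ^ 2 := by nlinarith
    omega

theorem card_Omega_le {n : ℕ} (d : Fin n → ℕ) : Fintype.card (Omega d) ≤ 2 ^ (n ^ 2) := by
  calc Fintype.card (Omega d) ≤ Fintype.card (Finset (Sym2 (Fin n))) :=
        Fintype.card_subtype_le _
    _ = 2 ^ Fintype.card (Sym2 (Fin n)) := Fintype.card_finset
    _ ≤ 2 ^ (n ^ 2) := Nat.pow_le_pow_right (by norm_num) (card_sym2_fin_le n)

theorem log_card_Omega_le {n : ℕ} (d : Fin n → ℕ) :
    Real.log (Fintype.card (Omega d) : ℝ) ≤ (n : ℝ) ^ 2 := by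
  rcases Nat.eq_zero_or_pos (Fintype.card (Omega d)) with h0 | hpos
  · rw [h0]
    simp
  · have h1 : (Fintype.card (Omega d) : ℝ) ≤ (2 : ℝ) ^ (n ^ 2) := by
      exact_mod_cast card_Omega_le d
    have h2 : (0 : ℝ) < Fintype.card (Omega d) := by exact_mod_cast hpos
    calc Real.log (Fintype.card (Omega d) : ℝ) ≤ Real.log ((2 : ℝ) ^ (n ^ 2)) :=
          Real.log_le_log h2 h1
      _ = (n ^ 2 : ℕ) * Real.log 2 := by rw [Real.log_pow]
      _ ≤ (n ^ 2 : ℕ) * 1 := by
          apply mul_le_mul_of_nonneg_left _ (Nat.cast_nonneg _)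
          have := Real.log_two_lt_d9
          linarith
      _ = (n : ℝ) ^ 2 := by push_cast; ring

end Vale.Agent.Lib.P335.H23
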