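import Vale.Agent.Lib.P335.Markov

/-!
# Poincare inequality implies exponentially fast mixing for lazy symmetric chains

`Q` is a symmetric stochastic kernel on a finite state space, `P = (1/2) 1 + (1/2) Q` the lazy
chain. If `γ * ∑ f^2 ≤ dform Q f` for all mean-zero `f`, then the squared `ℓ²` distance to
uniform decays like `(1 - γ/4)^t`, and the total variation distance is at most `1/4` as soon as
`t ≥ (4/γ) (log |Ω| + 2)`.
-/

namespace Vale.Agent.Lib.P335.H23

open Finset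
open Vale.Agent.Lib.P335

section
variable {Ω : Type} [Fintype Ω] [DecidableEq Ω]

/-- `ℓ²` decay of the lazy chain under a Poincare inequality. -/
theorem lazy_chain_l2 (Q : Ω → Ω → ℝ) (hQsymm : ∀ x y, Q x y = Q y x) (hQnn : ∀ x y, 0 ≤ Q x y)
    (hQrow : ∀ x, ∑ y, Q x y = 1)
    (γ : ℝ) (hγ4 : γ ≤ 4)
    (hpoin : ∀ f : Ω → ℝ, ∑ x, f x = 0 → γ * ∑ x, f x ^ 2 ≤ dform Q f)
    (P : Matrix Ω Ω ℝ)
    (hP : ∀ x y, P x y = (1 / 2) * (if x = y then 1 else 0) + (1 / 2) * Q x y)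
    (t : ℕ) (x : Ω) :
    ∑ y, ((P ^ t) x y - 1 / (Fintype.card Ω : ℝ)) ^ 2 ≤ (1 - γ / 4) ^ t := by
  have hNpos : (0 : ℝ) < Fintype.card Ω := by
    have : 0 < Fintype.card Ω := Fintype.card_pos_iff.mpr ⟨x⟩
    exact_mod_cast this
  set N : ℝ := (Fintype.card Ω : ℝ) with hNdef
  have hstep : ∀ s : ℕ, ∀ y, (P ^ (s + 1)) x y - 1 / N
      = lazyStep Q (fun z => (P ^ s) x z - 1 / N) y := by
    intro s y
    rw [pow_succ, Matrix.mul_apply]
    unfold lazyStep
    have h1 : ∑ z, (P ^ s) x z * P z y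
        = (1 / 2) * (P ^ s) x y + (1 / 2) * ∑ z, Q y z * (P ^ s) x z := by
      have : ∀ z, (P ^ s) x z * P z y
          = (1 / 2) * ((P ^ s) x z * (if z = y then 1 else 0)) + (1 / 2) * (Q y z * (P ^ s) x z) := by
        intro z
        rw [hP z y, hQsymm z y]
        ring
      rw [sum_congr rfl fun z _ => this z, sum_add_distrib, ← mul_sum, ← mul_sum]
      congr 2
      simp
    have h2 : ∑ z, Q y z * ((P ^ s) x z - 1 / N) = ∑ z, Q y z * (P ^ s) x z - 1 / N := by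
      have : ∀ z, Q y z * ((P ^ s) x z - 1 / N) = Q y z * (P ^ s) x z - Q y z * (1 / N) := by
        intro z; ring
      rw [sum_congr rfl fun z _ => this z, sum_sub_distrib, ← sum_mul, hQrow y, one_mul]
    rw [h1, h2]
    ring
  have hinv : ∀ s : ℕ, (∑ y, ((P ^ s) x y - 1 / N) = 0) ∧
      (∑ y, ((P ^ s) x y - 1 / N) ^ 2 ≤ (1 - γ / 4) ^ s) := by
    intro s
    induction s with
    | zero =>
      have hone : ∀ y, (P ^ 0) x y = if x = y then 1 else 0 := by
        intro y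
        rw [pow_zero, Matrix.one_apply]
      constructor
      · rw [sum_sub_distrib]
        simp only [hone, sum_ite_eq, mem_univ, if_true, sum_const, card_univ, nsmul_eq_mul]
        rw [← hNdef]
        field_simp
        ring
      · have : ∀ y, ((P ^ 0) x y - 1 / N) ^ 2
            = (if x = y then 1 else 0) * (1 - 2 / N) + 1 / N ^ 2 := by
          intro y
          rw [hone y]
          split_ifs <;> ring
        rw [sum_congr rfl fun y _ => this y, sum_add_distrib, ← sum_mul]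
        simp only [sum_ite_eq, mem_univ, if_true, sum_const, card_univ, nsmul_eq_mul, pow_zero]
        rw [← hNdef]
        have : N * (1 / N ^ 2) = 1 / N := by field_simp
        rw [this]
        have hpos : 0 < 1 / N := by positivity
        have h2N : 2 / N = 2 * (1 / N) := by ring
        rw [h2N]
        linarith
    | succ s ih =>
      obtain ⟨ih1, ih2⟩ := ih
      have hfun : (fun y => (P ^ (s + 1)) x y - 1 / N)
          = lazyStep Q (fun z => (P ^ s) x z - 1 / N) := funext (hstep s)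
      constructor
      · have := sum_lazyStep Q hQsymm hQrow (fun z => (P ^ s) x z - 1 / N)
        rw [← hfun] at this
        rw [this, ih1]
      · have h1 := sum_lazyStep_sq_le Q hQsymm hQnn hQrow (fun z => (P ^ s) x z - 1 / N)
        rw [← hfun] at h1
        have h2 := hpoin (fun z => (P ^ s) x z - 1 / N) ih1
        simp only at h1 h2
        set A := ∑ y, ((P ^ s) x y - 1 / N) ^ 2 with hA
        set F := dform Q (fun z => (P ^ s) x z - 1 / N) with hF
        calc ∑ y, ((P ^ (s + 1)) x y - 1 / N) ^ 2 ≤ A - F / 4 := h1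
          _ ≤ (1 - γ / 4) * A := by linarith
          _ ≤ (1 - γ / 4) * (1 - γ / 4) ^ s := mul_le_mul_of_nonneg_left ih2 (by linarith)
          _ = (1 - γ / 4) ^ (s + 1) := by ring
  exact (hinv t).2

/-- Total variation bound with an explicit constant factor: `TV ≤ (1/2) sqrt(N (1-γ/4)^t)`,
stated in squared form. -/
theorem lazy_chain_tv_sq (Q : Ω → Ω → ℝ) (hQsymm : ∀ x y, Q x y = Q y x) (hQnn : ∀ x y, 0 ≤ Q x y)
    (hQrow : ∀ x, ∑ y, Q x y = 1)
    (γ : ℝ) (hγ4 : γ ≤ 4)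
    (hpoin : ∀ f : Ω → ℝ, ∑ x, f x = 0 → γ * ∑ x, f x ^ 2 ≤ dform Q f)
    (P : Matrix Ω Ω ℝ)
    (hP : ∀ x y, P x y = (1 / 2) * (if x = y then 1 else 0) + (1 / 2) * Q x y)
    (t : ℕ) (x : Ω) :
    (∑ y, |(P ^ t) x y - 1 / (Fintype.card Ω : ℝ)|) ^ 2
      ≤ (Fintype.card Ω : ℝ) * (1 - γ / 4) ^ t := by
  have hsq := lazy_chain_l2 Q hQsymm hQnn hQrow γ hγ4 hpoin P hP t x
  have hcs : (∑ y, |(P ^ t) x y - 1 / (Fintype.card Ω : ℝ)|) ^ 2
      ≤ (Fintype.card Ω : ℝ) * ∑ y, ((P ^ t) x y - 1 / (Fintype.card Ω : ℝ)) ^ 2 := by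
    have := sq_sum_le_card_mul_sum_sq (s := (univ : Finset Ω))
      (f := fun y => |(P ^ t) x y - 1 / (Fintype.card Ω : ℝ)|)
    simp only [sq_abs, card_univ] at this
    exact this
  calc (∑ y, |(P ^ t) x y - 1 / (Fintype.card Ω : ℝ)|) ^ 2
      ≤ (Fintype.card Ω : ℝ) * ∑ y, ((P ^ t) x y - 1 / (Fintype.card Ω : ℝ)) ^ 2 := hcs
    _ ≤ (Fintype.card Ω : ℝ) * (1 - γ / 4) ^ t :=
      mul_le_mul_of_nonneg_left hsq (Nat.cast_nonneg _)

/-- Mixing bound in total variation for a lazy symmetric chain satisfying a Poincare inequality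
with constant `γ`: after `t ≥ (4/γ) (log |Ω| + 2)` steps the distance to uniform is `≤ 1/4`. -/
theorem lazy_chain_tv_exp (Q : Ω → Ω → ℝ) (hQsymm : ∀ x y, Q x y = Q y x) (hQnn : ∀ x y, 0 ≤ Q x y)
    (hQrow : ∀ x, ∑ y, Q x y = 1)
    (γ : ℝ) (hγ0 : 0 < γ) (hγ4 : γ ≤ 4)
    (hpoin : ∀ f : Ω → ℝ, ∑ x, f x = 0 → γ * ∑ x, f x ^ 2 ≤ dform Q f)
    (P : Matrix Ω Ω ℝ)
    (hP : ∀ x y, P x y = (1 / 2) * (if x = y then 1 else 0) + (1 / 2) * Q x y)
    (t : ℕ) (ht : (4 / γ) * (Real.log (Fintype.card Ω) + 2) ≤ t) (x : Ω) :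
    (1 / 2) * ∑ y, |(P ^ t) x y - 1 / (Fintype.card Ω : ℝ)| ≤ 1 / 4 := by
  have hNpos : (0 : ℝ) < Fintype.card Ω := by
    have : 0 < Fintype.card Ω := Fintype.card_pos_iff.mpr ⟨x⟩
    exact_mod_cast this
  set N : ℝ := (Fintype.card Ω : ℝ) with hNdef
  have hS := lazy_chain_tv_sq Q hQsymm hQnn hQrow γ hγ4 hpoin P hP t x
  rw [← hNdef] at hS
  have hρ0 : 0 ≤ 1 - γ / 4 := by linarith
  -- (1 - γ/4)^t ≤ exp (-(γ/4) t)
  have h1 : (1 - γ / 4) ^ t ≤ Real.exp (-(γ / 4) * t) := by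
    have h := Real.one_sub_le_exp_neg (γ / 4)
    calc (1 - γ / 4) ^ t ≤ (Real.exp (-(γ / 4))) ^ t := pow_le_pow_left₀ hρ0 h t
      _ = Real.exp (-(γ / 4) * t) := by
        rw [← Real.exp_nat_mul]
        ring_nf
  have h2 : Real.log N + 2 ≤ (γ / 4) * t := by
    have : (4 / γ) * (Real.log N + 2) ≤ t := ht
    have h3 : Real.log N + 2 = (γ / 4) * ((4 / γ) * (Real.log N + 2)) := by
      field_simp
    rw [h3]
    exact mul_le_mul_of_nonneg_left this (by positivity)
  have h4 : Real.exp (-(γ / 4) * t) ≤ Real.exp (-(Real.log N + 2)) := by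
    apply Real.exp_le_exp.mpr
    linarith
  have h5 : Real.exp (-(Real.log N + 2)) = Real.exp (-2) / N := by
    rw [neg_add, Real.exp_add, Real.exp_neg (Real.log N), Real.exp_log hNpos]
    field_simp
  have h6 : Real.exp (-2) ≤ 1 / 4 := by
    have h7 : (4 : ℝ) ≤ Real.exp 2 := by
      have := Real.add_one_le_exp (2 : ℝ)
      have h8 : Real.exp 2 = Real.exp 1 * Real.exp 1 := by
        rw [← Real.exp_add]; norm_num
      have h9 : (2 : ℝ) ≤ Real.exp 1 := by
        have := Real.add_one_le_exp (1 : ℝ)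
        linarith
      rw [h8]
      nlinarith
    rw [Real.exp_neg]
    rw [inv_eq_one_div]
    exact one_div_le_one_div_of_le (by norm_num) h7
  have hfin : N * (1 - γ / 4) ^ t ≤ 1 / 4 := by
    calc N * (1 - γ / 4) ^ t ≤ N * (Real.exp (-2) / N) := by
          apply mul_le_mul_of_nonneg_left _ hNpos.le
          rw [← h5]
          exact le_trans h1 h4
      _ = Real.exp (-2) := by field_simp
      _ ≤ 1 / 4 := h6
  have hS' : (∑ y, |(P ^ t) x y - 1 / N|) ^ 2 ≤ 1 / 4 := le_trans hS hfin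
  have hS0 : 0 ≤ ∑ y, |(P ^ t) x y - 1 / N| := sum_nonneg fun y _ => abs_nonneg _
  nlinarith

end

end Vale.Agent.Lib.P335.H23
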