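import Vale.Agent.Lib.P335.Main
import Vale.Agent.Lib.P335.H23.MixExp
import Vale.Agent.Lib.P335.H23.CardOmega

/-!
# From a unit-weight Poincare inequality on the switch graph to a mixing bound

`SwitchAdj G G'` says that `G' ≠ G` arises from `G` by one switch. If
`c * ∑ f^2 ≤ ∑_{G} ∑_{G' switch-adjacent to G} (f G - f G')^2` for all mean-zero `f`
(each unordered switch edge is counted twice on the right, so `c = 4` is the statement
`lambda_2 ≥ 2` for the unit-weight switch Laplacian), then the lazy switch chain of the problem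
is within total variation distance `1/4` of uniform after `(4 n^4 / c) (n^2 + 2)` steps.
-/

namespace Vale.Agent.Lib.P335.H23

open Finset
open Vale.Agent.Lib.P335
open Classical

variable {n : ℕ}

/-- `G'` is obtained from `G` by one switch and differs from `G`. -/
def SwitchAdj {d : Fin n → ℕ} (G G' : Omega d) : Prop :=
  G ≠ G' ∧ ∃ p : Proposal n, step G p = G'

/-- The unit-weight switch energy: the sum of `(f G - f G')^2` over ordered pairs of
switch-adjacent graphs (every unordered switch edge is counted twice). -/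
noncomputable def switchEnergy (d : Fin n → ℕ) (f : Omega d → ℝ) : ℝ :=
  ∑ G, ∑ G', if SwitchAdj G G' then (f G - f G') ^ 2 else 0

theorem SwitchAdj.symm {d : Fin n → ℕ} {G G' : Omega d} (h : SwitchAdj G G') :
    SwitchAdj G' G := by
  obtain ⟨hne, p, hp⟩ := h
  exact ⟨Ne.symm hne, flipP p, step_flip hp hne⟩

theorem switchEnergy_le_dform (hn : 4 ≤ n) (d : Fin n → ℕ) (f : Omega d → ℝ) :
    switchEnergy d f / (n : ℝ) ^ 4 ≤ dform (Qker d) f := by
  unfold switchEnergy dform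
  rw [sum_div]
  refine sum_le_sum fun G _ => ?_
  rw [sum_div]
  refine sum_le_sum fun G' _ => ?_
  split_ifs with h
  · obtain ⟨_, p, hp⟩ := h
    have h1 := Qker_ge (d := d) hn hp
    have h2 : 0 ≤ (f G - f G') ^ 2 := sq_nonneg _
    calc (f G - f G') ^ 2 / (n : ℝ) ^ 4 = 1 / (n : ℝ) ^ 4 * (f G - f G') ^ 2 := by ring
      _ ≤ Qker d G G' * (f G - f G') ^ 2 := mul_le_mul_of_nonneg_right h1 h2
  · rw [zero_div]
    exact mul_nonneg (Qker_nonneg d G G') (sq_nonneg _)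

/-- Mixing bound for the switch chain from a unit-weight Poincare inequality with constant `c`
(`c = 4` corresponds to `lambda_2 ≥ 2`). -/
theorem switch_tv_of_poincare (hn : 4 ≤ n) (d : Fin n → ℕ) (c : ℝ) (hc0 : 0 < c) (hc4 : c ≤ 4)
    (hpoin : ∀ f : Omega d → ℝ, ∑ G, f G = 0 → c * ∑ G, f G ^ 2 ≤ switchEnergy d f)
    (t : ℕ) (ht : (4 * (n : ℝ) ^ 4 / c) * ((n : ℝ) ^ 2 + 2) ≤ t) (G : Omega d) :
    tvDist ((switchMatrix d ^ t) G) (unifDist d) ≤ 1 / 4 := by
  have hn1 : (1 : ℝ) ≤ n := by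
    have : 1 ≤ n := by omega
    exact_mod_cast this
  have hn4 : (1 : ℝ) ≤ (n : ℝ) ^ 4 := one_le_pow₀ hn1
  have hn4pos : (0 : ℝ) < (n : ℝ) ^ 4 := by linarith
  have hγ0 : 0 < c / (n : ℝ) ^ 4 := div_pos hc0 hn4pos
  have hγ4 : c / (n : ℝ) ^ 4 ≤ 4 := by
    rw [div_le_iff₀ hn4pos]
    nlinarith
  have hpoin' : ∀ f : Omega d → ℝ, ∑ G, f G = 0 →
      c / (n : ℝ) ^ 4 * ∑ G, f G ^ 2 ≤ dform (Qker d) f := by
    intro f hf
    have h1 := hpoin f hf
    have h2 := switchEnergy_le_dform hn d f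
    calc c / (n : ℝ) ^ 4 * ∑ G, f G ^ 2 = (c * ∑ G, f G ^ 2) / (n : ℝ) ^ 4 := by ring
      _ ≤ switchEnergy d f / (n : ℝ) ^ 4 := div_le_div_of_nonneg_right h1 hn4pos.le
      _ ≤ dform (Qker d) f := h2
  have hlog := log_card_Omega_le d
  have ht' : (4 / (c / (n : ℝ) ^ 4)) * (Real.log (Fintype.card (Omega d) : ℝ) + 2) ≤ t := by
    have h3 : 4 / (c / (n : ℝ) ^ 4) = 4 * (n : ℝ) ^ 4 / c := by
      field_simp
    rw [h3]
    have h4 : 0 ≤ 4 * (n : ℝ) ^ 4 / c := by positivity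
    calc 4 * (n : ℝ) ^ 4 / c * (Real.log (Fintype.card (Omega d) : ℝ) + 2)
        ≤ 4 * (n : ℝ) ^ 4 / c * ((n : ℝ) ^ 2 + 2) :=
          mul_le_mul_of_nonneg_left (by linarith) h4
      _ ≤ t := ht
  exact lazy_chain_tv_exp (Qker d) (Qker_symm d) (Qker_nonneg d) (Qker_row hn d)
    (c / (n : ℝ) ^ 4) hγ0 hγ4 hpoin' (switchMatrix d) (fun x y => rfl) t ht' G

/-- The case `c = 4` (second eigenvalue of the unit-weight switch Laplacian at least `2`), with a
natural-number time threshold. -/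
theorem switch_tv_of_gap_two (hn : 4 ≤ n) (d : Fin n → ℕ)
    (hpoin : ∀ f : Omega d → ℝ, ∑ G, f G = 0 → 4 * ∑ G, f G ^ 2 ≤ switchEnergy d f)
    (t : ℕ) (ht : n ^ 4 * (n ^ 2 + 2) ≤ t) (G : Omega d) :
    tvDist ((switchMatrix d ^ t) G) (unifDist d) ≤ 1 / 4 := by
  apply switch_tv_of_poincare hn d 4 (by norm_num) (le_refl _) hpoin t _ G
  have h1 : ((n ^ 4 * (n ^ 2 + 2) : ℕ) : ℝ) ≤ (t : ℝ) := by exact_mod_cast ht
  have h2 : (4 * (n : ℝ) ^ 4 / 4) * ((n : ℝ) ^ 2 + 2) = ((n ^ 4 * (n ^ 2 + 2) : ℕ) : ℝ) := by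
    push_cast
    ring
  rw [h2]
  exact h1

/-- The corresponding bound on the mixing time. -/
theorem tmix_le_of_gap_two (hn : 4 ≤ n) (d : Fin n → ℕ)
    (hpoin : ∀ f : Omega d → ℝ, ∑ G, f G = 0 → 4 * ∑ G, f G ^ 2 ≤ switchEnergy d f) :
    tmix d ≤ n ^ 4 * (n ^ 2 + 2) := by
  unfold tmix
  apply Nat.sInf_le
  intro G
  exact switch_tv_of_gap_two hn d hpoin _ (le_refl _) G

end Vale.Agent.Lib.P335.H23
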