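import Vale.Agent.Lib.P335.H23.GraphD
import Vale.Agent.Lib.P335.Gr.Avg

/-!
# The disjoint-pair inequality (D) in the graph model from (PI) and (J2) (problem P335)

`graphD_gavg` instantiates the abstract reindexing `graphD_of` with `Y b f = f - gavg b f` and
rewrites the left side as `∑_b (⟨f, f⟩ - ⟨f, gavg b f⟩)`, which is the shape of the hypothesis
`hD` of the model-free gap theorem.
-/

namespace Vale.Agent.Lib.P335.H23

open Finset
open Classical

variable {n : ℕ} {d : Fin n → ℕ}

/-- `⟨f - gavg W f, f - gavg W f⟩ = ⟨f, f⟩ - ⟨f, gavg W f⟩`. -/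
theorem ip_sub_gavg_self (W : Finset (Fin n)) (f : Omega d → ℝ) :
    Bip.ip (f - Gr.gavg W f) (f - Gr.gavg W f) = Bip.ip f f - Bip.ip f (Gr.gavg W f) := by
  have h1 : Bip.ip (f - Gr.gavg W f) (f - Gr.gavg W f)
      = Bip.ip f f - 2 * Bip.ip f (Gr.gavg W f) + Bip.ip (Gr.gavg W f) (Gr.gavg W f) := by
    unfold Bip.ip
    rw [Finset.mul_sum, ← Finset.sum_sub_distrib, ← Finset.sum_add_distrib]
    apply Finset.sum_congr rfl
    intro x _
    simp only [Pi.sub_apply]
    ring
  rw [h1, ← Gr.ip_gavg_self]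
  ring

/-- **(PI) + (J2) ⇒ (D)** in the graph model: `fen b c f` is the flip energy of the two
diagonals `b`, `c` and `kap b c f` the orbit-mean term; the conclusion is the hypothesis `hD`
of the model-free gap theorem for the family `Gr.gavg`. -/
theorem graphD_gavg (fen kap : Finset (Fin n) → Finset (Fin n) → (Omega d → ℝ) → ℝ)
    (f : Omega d → ℝ)
    (hPI : ∀ b ∈ (univ : Finset (Fin n)).powersetCard 2,
      ∀ c ∈ (univ : Finset (Fin n)).powersetCard 2, Disjoint b c →
      (1 / 2) * fen b c f - kap b c f - kap c b f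
        ≤ 2 * Bip.ip (f - Gr.gavg b f) (f - Gr.gavg c f))
    (hJ2 : ∀ b ∈ (univ : Finset (Fin n)).powersetCard 2,
      Bip.ip (f - Gr.gavg b f) (f - Gr.gavg b f)
        + ∑ c ∈ ((univ : Finset (Fin n)).powersetCard 2).filter (fun c => Disjoint b c),
            kap b c f
      ≤ (1 / 4) * ∑ c ∈ ((univ : Finset (Fin n)).powersetCard 2).filter
          (fun c => Disjoint b c), fen b c f) :
    ∑ b ∈ (univ : Finset (Fin n)).powersetCard 2, (Bip.ip f f - Bip.ip f (Gr.gavg b f))
      ≤ ∑ b ∈ (univ : Finset (Fin n)).powersetCard 2,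
          ∑ b' ∈ ((univ : Finset (Fin n)).powersetCard 2).filter (fun b' => Disjoint b b'),
            Bip.ip (f - Gr.gavg b f) (f - Gr.gavg b' f) := by
  have h := graphD_of (Om := Omega d) (fun b f => f - Gr.gavg b f) fen kap f hPI hJ2
  have e : ∑ b ∈ (univ : Finset (Fin n)).powersetCard 2, (Bip.ip f f - Bip.ip f (Gr.gavg b f))
      = ∑ b ∈ (univ : Finset (Fin n)).powersetCard 2,
          Bip.ip (f - Gr.gavg b f) (f - Gr.gavg b f) :=
    Finset.sum_congr rfl (fun b _ => (ip_sub_gavg_self b f).symm)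
  rw [e]
  exact h

end Vale.Agent.Lib.P335.H23
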