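import Vale.Agent.Lib.P335.Bip.Defs

/-!
# The disjoint-pair inequality (D) from (PI) and (J2): pure reindexing (problem P335)

Abstract bookkeeping step of the simple-graph case. `Y b f` plays the role of `f - gavg b f`,
`fen b c f` of the flip energy of the pair of diagonals `b`, `c`, and `kap b c f` of the
orbit-mean term. From the pair inequality (PI) for every ordered pair of related indices and the
Johnson-type inequality (J2) for every index, the inequality (D) follows: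
`∑_b ⟨Y b f, Y b f⟩ ≤ ∑_b ∑_{c related to b} ⟨Y b f, Y c f⟩`.
-/

namespace Vale.Agent.Lib.P335.H23

open Finset

/-- **(PI) + (J2) ⇒ (D)**, abstract form: `P` a finite index set, `rel` a symmetric relation
on indices (disjointness of vertex pairs in the application). -/
theorem graphD_of_rel {Om : Type} [Fintype Om] {ι : Type} (P : Finset ι)
    (rel : ι → ι → Prop) [∀ b, DecidablePred (rel b)] (hrel : ∀ b c, rel b c → rel c b)
    (Y : ι → (Om → ℝ) → (Om → ℝ)) (fen kap : ι → ι → (Om → ℝ) → ℝ) (f : Om → ℝ)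
    (hPI : ∀ b ∈ P, ∀ c ∈ P, rel b c →
      (1 / 2) * fen b c f - kap b c f - kap c b f ≤ 2 * Bip.ip (Y b f) (Y c f))
    (hJ2 : ∀ b ∈ P, Bip.ip (Y b f) (Y b f) + ∑ c ∈ P.filter (rel b), kap b c f
      ≤ (1 / 4) * ∑ c ∈ P.filter (rel b), fen b c f) :
    ∑ b ∈ P, Bip.ip (Y b f) (Y b f)
      ≤ ∑ b ∈ P, ∑ c ∈ P.filter (rel b), Bip.ip (Y b f) (Y c f) := by
  -- sum of (PI) over ordered related pairs
  have h1 : ∑ b ∈ P, ∑ c ∈ P.filter (rel b),
      ((1 / 2) * fen b c f - kap b c f - kap c b f)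
      ≤ ∑ b ∈ P, ∑ c ∈ P.filter (rel b), 2 * Bip.ip (Y b f) (Y c f) := by
    apply Finset.sum_le_sum
    intro b hb
    apply Finset.sum_le_sum
    intro c hc
    rw [Finset.mem_filter] at hc
    exact hPI b hb c hc.1 hc.2
  -- swapping the two indices in the second kap-sum
  have hswap : ∑ b ∈ P, ∑ c ∈ P.filter (rel b), kap c b f
      = ∑ b ∈ P, ∑ c ∈ P.filter (rel b), kap b c f := by
    have e1 : ∀ g : ι → ι → ℝ, ∑ b ∈ P, ∑ c ∈ P.filter (rel b), g b c
        = ∑ b ∈ P, ∑ c ∈ P, if rel b c then g b c else 0 := by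
      intro g
      apply Finset.sum_congr rfl
      intro b _
      rw [Finset.sum_filter]
    rw [e1 (fun b c => kap c b f), e1 (fun b c => kap b c f), Finset.sum_comm]
    apply Finset.sum_congr rfl
    intro b _
    apply Finset.sum_congr rfl
    intro c _
    by_cases h : rel b c
    · rw [if_pos h, if_pos (hrel b c h)]
    · have h' : ¬ rel c b := fun hcb => h (hrel c b hcb)
      rw [if_neg h, if_neg h']
  -- sum of (J2)
  have h2 : ∑ b ∈ P, (Bip.ip (Y b f) (Y b f) + ∑ c ∈ P.filter (rel b), kap b c f)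
      ≤ ∑ b ∈ P, (1 / 4) * ∑ c ∈ P.filter (rel b), fen b c f :=
    Finset.sum_le_sum (fun b hb => hJ2 b hb)
  have e3 : ∑ b ∈ P, ∑ c ∈ P.filter (rel b), ((1 / 2) * fen b c f - kap b c f - kap c b f)
      = (1 / 2) * ∑ b ∈ P, ∑ c ∈ P.filter (rel b), fen b c f
        - ∑ b ∈ P, ∑ c ∈ P.filter (rel b), kap b c f
        - ∑ b ∈ P, ∑ c ∈ P.filter (rel b), kap c b f := by
    simp only [Finset.sum_sub_distrib, Finset.mul_sum]
  have e4 : ∑ b ∈ P, ∑ c ∈ P.filter (rel b), 2 * Bip.ip (Y b f) (Y c f)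
      = 2 * ∑ b ∈ P, ∑ c ∈ P.filter (rel b), Bip.ip (Y b f) (Y c f) := by
    simp only [Finset.mul_sum]
  have e5 : ∑ b ∈ P, (Bip.ip (Y b f) (Y b f) + ∑ c ∈ P.filter (rel b), kap b c f)
      = ∑ b ∈ P, Bip.ip (Y b f) (Y b f) + ∑ b ∈ P, ∑ c ∈ P.filter (rel b), kap b c f := by
    rw [Finset.sum_add_distrib]
  have e6 : ∑ b ∈ P, (1 / 4) * ∑ c ∈ P.filter (rel b), fen b c f
      = (1 / 4) * ∑ b ∈ P, ∑ c ∈ P.filter (rel b), fen b c f := by
    rw [Finset.mul_sum]
  rw [e3, e4, hswap] at h1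
  rw [e5, e6] at h2
  linarith

/-- **(PI) + (J2) ⇒ (D)** for vertex pairs: `P` = the 2-subsets of `Fin n`, related when
disjoint. -/
theorem graphD_of {Om : Type} [Fintype Om] {n : ℕ}
    (Y : Finset (Fin n) → (Om → ℝ) → (Om → ℝ))
    (fen kap : Finset (Fin n) → Finset (Fin n) → (Om → ℝ) → ℝ) (f : Om → ℝ)
    (hPI : ∀ b ∈ (univ : Finset (Fin n)).powersetCard 2,
      ∀ c ∈ (univ : Finset (Fin n)).powersetCard 2, Disjoint b c →
      (1 / 2) * fen b c f - kap b c f - kap c b f ≤ 2 * Bip.ip (Y b f) (Y c f))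
    (hJ2 : ∀ b ∈ (univ : Finset (Fin n)).powersetCard 2, Bip.ip (Y b f) (Y b f)
        + ∑ c ∈ ((univ : Finset (Fin n)).powersetCard 2).filter (fun c => Disjoint b c),
            kap b c f
      ≤ (1 / 4) * ∑ c ∈ ((univ : Finset (Fin n)).powersetCard 2).filter
          (fun c => Disjoint b c), fen b c f) :
    ∑ b ∈ (univ : Finset (Fin n)).powersetCard 2, Bip.ip (Y b f) (Y b f)
      ≤ ∑ b ∈ (univ : Finset (Fin n)).powersetCard 2,
          ∑ c ∈ ((univ : Finset (Fin n)).powersetCard 2).filter (fun c => Disjoint b c),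
            Bip.ip (Y b f) (Y c f) :=
  graphD_of_rel ((univ : Finset (Fin n)).powersetCard 2) (fun b c => Disjoint b c)
    (fun _ _ h => h.symm) Y fen kap f hPI hJ2

end Vale.Agent.Lib.P335.H23
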