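import Vale.Agent.Lib.P335.H23.J2Transfer
import Vale.Agent.Lib.P335.Bip.SepGram

/-!
# The inequality (J2) in the graph model (problem P335)

The two-row table inequality (J2) follows from the Gram half `Bip.sep_gram_table`, the sharp
Johnson gap `Bip.johnson_full` and the identity `Bip.Johnson.sum_fen`; it is transported to
the classes of a vertex pair by `graph_J2_of`. The result `graph_J2` is the second input of the
disjoint-pair inequality (D).
-/

namespace Vale.Agent.Lib.P335.H23

open Finset
open Classical
open Vale.Agent.Lib.P335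

set_option linter.unusedSectionVars false

variable {n : ℕ} {d : Fin n → ℕ}

namespace J2T

section table

variable {R C : Type} [Fintype R] [DecidableEq R] [Fintype C] [DecidableEq C]
variable {r : R → ℕ} {c : C → ℕ}

/-- The two-row table inequality (J2) with the mean terms written through `Bip.SepGram.kap`. -/
theorem j2_sep (i k : R) (hik : i ≠ k) (F : Bip.Tab r c → ℝ) :
    ∑ x, (F x - Bip.avg {i, k} F x) ^ 2
      + (1 / 2) * ∑ p : C, ∑ q : C,
          (if p = q then 0 else Bip.SepGram.kap i k p q (F - Bip.avg {i, k} F))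
      ≤ (1 / 8) * ∑ p : C, ∑ q : C, (if p = q then 0 else
          ∑ x, (F x - F (Bip.Johnson.colSwapTab {i, k} p q x)) ^ 2) := by
  have hg0 : Bip.avg {i, k} (F - Bip.avg {i, k} F) = 0 := by
    rw [Bip.avg_sub, Bip.avg_idem, sub_self]
  have h1 := Bip.sep_gram_table i k hik (F - Bip.avg {i, k} F) hg0
  have h2 := Bip.johnson_full i k hik F
  have h3 := Bip.Johnson.sum_fen hik F
  rw [h3]
  have h4 : ∑ x : Bip.Tab r c, ((((Bip.pairDiff x.1 i k).card : ℝ) - 2) / 2)
        * (F - Bip.avg {i, k} F) x ^ 2
      = (1 / 2) * ∑ x : Bip.Tab r c, ((Bip.pairDiff x.1 i k).card : ℝ)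
            * (F x - Bip.avg {i, k} F x) ^ 2
        - ∑ x, (F x - Bip.avg {i, k} F x) ^ 2 := by
    rw [Finset.mul_sum, ← Finset.sum_sub_distrib]
    refine Finset.sum_congr rfl (fun x _ => ?_)
    rw [Pi.sub_apply]
    ring
  rw [h4] at h1
  linarith

/-- The two-row table inequality (J2) in the written-out form `TableJ2`. -/
theorem tableJ2 (i k : R) (hik : i ≠ k) (F : Bip.Tab r c → ℝ) : TableJ2 i k F := by
  unfold TableJ2
  have h := j2_sep i k hik F
  have hk : ∀ p q : C, Bip.SepGram.kap i k p q (F - Bip.avg {i, k} F)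
      = ∑ x ∈ univ.filter (fun x : Bip.Tab r c => Bip.Johnson.colSwapTab {i, k} p q x ≠ x),
          ((∑ y ∈ (Bip.cls {i, k} x).filter
              (fun y : Bip.Tab r c => Bip.Johnson.colSwapTab {i, k} p q y ≠ y),
              (F y - Bip.avg {i, k} F y))
            / (((Bip.cls {i, k} x).filter
              (fun y : Bip.Tab r c => Bip.Johnson.colSwapTab {i, k} p q y ≠ y)).card : ℝ))
            ^ 2 := by
    intro p q
    have hf : ∀ x : Bip.Tab r c,
        (Bip.SepGram.Sep i k p q x.1 ↔ Bip.Johnson.colSwapTab {i, k} p q x ≠ x) :=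
      fun x => (Bip.Johnson.colSwapTab_ne_iff hik x p q).symm
    unfold Bip.SepGram.kap
    rw [Finset.filter_congr (fun x _ => hf x)]
    refine Finset.sum_congr rfl (fun x _ => ?_)
    rw [Finset.filter_congr (fun y _ => hf y)]
    rfl
  simp only [hk] at h
  exact h

end table

end J2T

/-- **The graph inequality (J2).** For a two-element vertex set `b`: the variance of `f`
inside the classes of `b` plus the mean terms `kap b c` over all pairs `c` disjoint from `b`
is at most a quarter of the flip energies of `b` with these pairs. -/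
theorem graph_J2 (b : Finset (Fin n)) (hb : b.card = 2) (f : Omega d → ℝ) :
    Bip.ip (f - Gr.gavg b f) (f - Gr.gavg b f)
      + ∑ c ∈ ((univ : Finset (Fin n)).powersetCard 2).filter (fun c => Disjoint b c),
          Gr.kap b c (f - Gr.gavg b f)
      ≤ (1 / 4) * ∑ c ∈ ((univ : Finset (Fin n)).powersetCard 2).filter
            (fun c => Disjoint b c), Gr.fenergy b c f :=
  graph_J2_of b hb f (fun u w huw _ =>
    J2T.tableJ2 (J2T.rowU u w) (J2T.rowW u w) (J2T.rowU_ne_rowW huw) _)

end Vale.Agent.Lib.P335.H23
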