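import Vale.Agent.Lib.P335.Gr.Pair
import Vale.Agent.Lib.P335.Gr.Flip
import Vale.Agent.Lib.P335.Bip.ColSwapFacts

/-!
# Transfer of the two-row table inequality (J2) to a pair class of graphs (problem P335)

For two vertices `u ≠ w` the class of graphs agreeing with `G0` off `{u, w}` is encoded by
the two-row tables of `H24.frozenEquiv`. Under this encoding the flip of the four-cycle
between `{u, w}` and a disjoint pair `{x, y}` is the exchange of the columns `x`, `y` in the
two rows, and the alternating graphs are the tables moved by this exchange.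
-/

namespace Vale.Agent.Lib.P335.H23

open Finset
open Classical
open Vale.Agent.Lib.P335

set_option linter.unusedSectionVars false

variable {n : ℕ} {d : Fin n → ℕ}

namespace J2T

/-- The row of the vertex `u` in the two-row tables of the pair `{u, w}`. -/
abbrev rowU (u w : Fin n) : RowT ({u, w} : Finset (Fin n)) :=
  ⟨u, mem_insert_self u {w}⟩

/-- The row of the vertex `w` in the two-row tables of the pair `{u, w}`. -/
abbrev rowW (u w : Fin n) : RowT ({u, w} : Finset (Fin n)) :=
  ⟨w, mem_insert_of_mem (mem_singleton_self w)⟩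

theorem rowU_ne_rowW {u w : Fin n} (huw : u ≠ w) : rowU u w ≠ rowW u w :=
  fun h => huw (congrArg Subtype.val h)

theorem disjoint_cols {u w : Fin n} (p q : ColT ({u, w} : Finset (Fin n))) :
    Disjoint ({u, w} : Finset (Fin n)) {p.1, q.1} := by
  rw [Finset.disjoint_left]
  intro a ha hb
  rw [mem_insert, mem_singleton] at hb
  rcases hb with rfl | rfl
  · exact (mem_compl.mp p.2) ha
  · exact (mem_compl.mp q.2) ha

theorem col_val_ne {u w : Fin n} {p q : ColT ({u, w} : Finset (Fin n))} (hpq : p ≠ q) :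
    p.1 ≠ q.1 := fun h => hpq (Subtype.ext h)

/-- The switch of the two rows at the columns `p`, `q` is available in the table of `E`
exactly when the first perfect matching of the four-cycle is present. -/
theorem swOK_iff {u w : Fin n} (huw : u ≠ w) {r : RowT ({u, w} : Finset (Fin n)) → ℕ}
    {c : ColT ({u, w} : Finset (Fin n)) → ℕ} (E : Finset (Sym2 (Fin n))) (x : Bip.Tab r c)
    (hx : x.1 = rowOf {u, w} E) (p q : ColT ({u, w} : Finset (Fin n))) (hpq : p ≠ q) :
    Bip.SwOK x.1 (rowU u w) (rowW u w) p q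
      ↔ (s(u, p.1) ∈ E ∧ s(w, q.1) ∈ E ∧ s(u, q.1) ∉ E ∧ s(w, p.1) ∉ E) := by
  unfold Bip.SwOK
  rw [hx]
  simp only [mem_rowOf]
  constructor
  · rintro ⟨-, -, h1, h2, h3, h4⟩
    exact ⟨h1, h4, h2, h3⟩
  · rintro ⟨h1, h4, h2, h3⟩
    exact ⟨rowU_ne_rowW huw, hpq, h1, h2, h3, h4⟩

/-- The tables moved by the column exchange are the tables of the alternating graphs. -/
theorem moved_iff_isAlt {u w : Fin n} (huw : u ≠ w) {r : RowT ({u, w} : Finset (Fin n)) → ℕ}
    {c : ColT ({u, w} : Finset (Fin n)) → ℕ} (E : Finset (Sym2 (Fin n))) (x : Bip.Tab r c)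
    (hx : x.1 = rowOf {u, w} E) (p q : ColT ({u, w} : Finset (Fin n))) (hpq : p ≠ q) :
    Bip.Johnson.colSwapTab {rowU u w, rowW u w} p q x ≠ x ↔ Gr.IsAlt {u, w} {p.1, q.1} E := by
  rw [Bip.Johnson.colSwapTab_ne_iff (rowU_ne_rowW huw), Gr.isAlt_pair huw (col_val_ne hpq),
    swOK_iff huw E x hx p q hpq, swOK_iff huw E x hx q p (Ne.symm hpq)]
  rfl

/-- The table of the flipped graph is the column exchange of the table. -/
theorem rowOf_flipSet {u w : Fin n} (huw : u ≠ w) {r : RowT ({u, w} : Finset (Fin n)) → ℕ}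
    {c : ColT ({u, w} : Finset (Fin n)) → ℕ} (E : Finset (Sym2 (Fin n))) (x : Bip.Tab r c)
    (hx : x.1 = rowOf {u, w} E) (p q : ColT ({u, w} : Finset (Fin n))) (hpq : p ≠ q) :
    rowOf {u, w} (Gr.flipSet {u, w} {p.1, q.1} E)
      = (Bip.Johnson.colSwapTab {rowU u w, rowW u w} p q x).1 := by
  have hii := rowU_ne_rowW huw
  have hxy := col_val_ne hpq
  by_cases hA : Gr.IsAlt {u, w} {p.1, q.1} E
  · rcases (Gr.isAlt_pair huw hxy E).mp hA with h' | h'
    · have hsw : Bip.SwOK x.1 (rowU u w) (rowW u w) p q := (swOK_iff huw E x hx p q hpq).mpr h'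
      rw [Bip.Johnson.colSwapTab_val_of_swOK hsw, Gr.flipSet_pair_left huw hxy h',
        switchSet_valid h'.1 (by rw [Sym2.eq_swap]; exact h'.2.1) h'.2.2.1
          (by rw [Sym2.eq_swap]; exact h'.2.2.2), hx]
      exact rowOf_switch E (rowU u w) (rowW u w) p q hii hpq
    · have hsw : Bip.SwOK x.1 (rowU u w) (rowW u w) q p :=
        (swOK_iff huw E x hx q p (Ne.symm hpq)).mpr h'
      rw [Bip.Johnson.colSwapTab_val_of_swOK' hsw, Gr.flipSet_pair_right huw hxy h',
        switchSet_valid h'.1 (by rw [Sym2.eq_swap]; exact h'.2.1) h'.2.2.1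
          (by rw [Sym2.eq_swap]; exact h'.2.2.2), hx]
      exact rowOf_switch E (rowU u w) (rowW u w) q p hii (Ne.symm hpq)
  · have hfix : Bip.Johnson.colSwapTab {rowU u w, rowW u w} p q x = x := by
      by_contra hne
      exact hA ((moved_iff_isAlt huw E x hx p q hpq).mp hne)
    rw [Gr.flipSet_of_not hA, hfix, hx]

/-- The two-row table inequality (J2) for a function `F`, written out: the energy of the
column exchanges of the rows `i`, `i'` dominates the variance inside the pair classes plus the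
squared means over the moved parts. -/
def TableJ2 {R C : Type} [Fintype R] [DecidableEq R] [Fintype C] [DecidableEq C]
    {r : R → ℕ} {c : C → ℕ} (i i' : R) (F : Bip.Tab r c → ℝ) : Prop :=
  ∑ x, (F x - Bip.avg {i, i'} F x) ^ 2
    + (1 / 2) * ∑ a : C, ∑ b : C, (if a = b then 0 else
        ∑ x ∈ univ.filter (fun x : Bip.Tab r c => Bip.Johnson.colSwapTab {i, i'} a b x ≠ x),
          ((∑ y ∈ (Bip.cls {i, i'} x).filter
              (fun y : Bip.Tab r c => Bip.Johnson.colSwapTab {i, i'} a b y ≠ y),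
              (F y - Bip.avg {i, i'} F y))
            / (((Bip.cls {i, i'} x).filter
              (fun y : Bip.Tab r c => Bip.Johnson.colSwapTab {i, i'} a b y ≠ y)).card : ℝ)) ^ 2)
    ≤ (1 / 8) * ∑ a : C, ∑ b : C, (if a = b then 0 else
        ∑ x, (F x - F (Bip.Johnson.colSwapTab {i, i'} a b x)) ^ 2)

/-- Ordered pairs of distinct elements of `S` against two-element subsets of `S`. -/
theorem sum_offDiag_pairs {α : Type} [DecidableEq α] (S : Finset α) (Φ : Finset α → ℝ) :
    ∑ a ∈ S, ∑ b ∈ S, (if a = b then 0 else Φ {a, b}) = 2 * ∑ c ∈ S.powersetCard 2, Φ c := by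
  have h1 : ∑ a ∈ S, ∑ b ∈ S, (if a = b then 0 else Φ {a, b})
      = ∑ ab ∈ (S ×ˢ S).filter (fun ab : α × α => ab.1 ≠ ab.2), Φ {ab.1, ab.2} := by
    rw [← Finset.sum_product' (f := fun a b => if a = b then 0 else Φ {a, b})]
    rw [Finset.sum_filter]
    refine Finset.sum_congr rfl (fun ab _ => ?_)
    by_cases h : ab.1 = ab.2
    · rw [if_pos h, if_neg (not_not.mpr h)]
    · rw [if_neg h, if_pos h]
  have h2 : ∀ ab ∈ (S ×ˢ S).filter (fun ab : α × α => ab.1 ≠ ab.2),
      ({ab.1, ab.2} : Finset α) ∈ S.powersetCard 2 := by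
    intro ab hab
    rw [Finset.mem_filter, Finset.mem_product] at hab
    rw [Finset.mem_powersetCard]
    refine ⟨?_, Finset.card_pair hab.2⟩
    intro x hx
    rw [Finset.mem_insert, Finset.mem_singleton] at hx
    rcases hx with rfl | rfl
    · exact hab.1.1
    · exact hab.1.2
  rw [h1, ← Finset.sum_fiberwise_of_maps_to h2, Finset.mul_sum]
  refine Finset.sum_congr rfl (fun c hc => ?_)
  obtain ⟨hcS, hc2⟩ := Finset.mem_powersetCard.mp hc
  obtain ⟨x, y, hxy, rfl⟩ := Finset.card_eq_two.mp hc2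
  have hxS : x ∈ S := hcS (Finset.mem_insert_self x {y})
  have hyS : y ∈ S := hcS (Finset.mem_insert_of_mem (Finset.mem_singleton_self y))
  have hfib : ((S ×ˢ S).filter (fun ab : α × α => ab.1 ≠ ab.2)).filter
      (fun ab : α × α => ({ab.1, ab.2} : Finset α) = {x, y}) = {(x, y), (y, x)} := by
    ext ab
    obtain ⟨a, b⟩ := ab
    simp only [Finset.mem_filter, Finset.mem_product, Finset.mem_insert, Finset.mem_singleton,
      Prod.mk.injEq]
    constructor
    · rintro ⟨⟨_, hab⟩, heq⟩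
      have ha' : a ∈ ({x, y} : Finset α) := heq ▸ Finset.mem_insert_self a {b}
      have hb' : b ∈ ({x, y} : Finset α) :=
        heq ▸ Finset.mem_insert_of_mem (Finset.mem_singleton_self b)
      rw [Finset.mem_insert, Finset.mem_singleton] at ha' hb'
      rcases ha' with rfl | rfl <;> rcases hb' with rfl | rfl
      · exact absurd rfl hab
      · exact Or.inl ⟨rfl, rfl⟩
      · exact Or.inr ⟨rfl, rfl⟩
      · exact absurd rfl hab
    · rintro (⟨rfl, rfl⟩ | ⟨rfl, rfl⟩)
      · exact ⟨⟨⟨hxS, hyS⟩, hxy⟩, rfl⟩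
      · exact ⟨⟨⟨hyS, hxS⟩, Ne.symm hxy⟩, Finset.pair_comm _ _⟩
  have hne : (x, y) ≠ (y, x) := fun h => hxy (congrArg Prod.fst h)
  rw [hfib, Finset.sum_pair hne]
  show Φ {x, y} + Φ {y, x} = 2 * Φ {x, y}
  rw [Finset.pair_comm y x]
  ring

/-- Ordered pairs of distinct columns against the two-element vertex sets disjoint from
`U`. -/
theorem sum_cols_pairs (U : Finset (Fin n)) (Φ : Finset (Fin n) → ℝ) :
    ∑ p : ColT U, ∑ q : ColT U, (if p = q then 0 else Φ {p.1, q.1})
      = 2 * ∑ c ∈ ((univ : Finset (Fin n)).powersetCard 2).filter (fun c => Disjoint U c),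
          Φ c := by
  have h1 : ∑ p : ColT U, ∑ q : ColT U, (if p = q then 0 else Φ {p.1, q.1})
      = ∑ a ∈ Uᶜ, ∑ b ∈ Uᶜ, (if a = b then 0 else Φ {a, b}) := by
    rw [← Finset.sum_coe_sort Uᶜ (fun a => ∑ b ∈ Uᶜ, (if a = b then 0 else Φ {a, b}))]
    refine Finset.sum_congr rfl (fun p _ => ?_)
    rw [← Finset.sum_coe_sort Uᶜ (fun b => if p.1 = b then 0 else Φ {p.1, b})]
    refine Finset.sum_congr rfl (fun q _ => ?_)
    by_cases h : p = q
    · rw [if_pos h, if_pos (congrArg Subtype.val h)]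
    · rw [if_neg h, if_neg (fun h' => h (Subtype.ext h'))]
  have h2 : ((univ : Finset (Fin n)).powersetCard 2).filter (fun c => Disjoint U c)
      = Uᶜ.powersetCard 2 := by
    ext c
    simp only [Finset.mem_filter, Finset.mem_powersetCard, Finset.subset_univ, true_and]
    constructor
    · rintro ⟨hc, hd⟩
      exact ⟨Finset.subset_compl_iff_disjoint_left.mpr hd, hc⟩
    · rintro ⟨hsub, hc⟩
      exact ⟨hc, Finset.subset_compl_iff_disjoint_left.mp hsub⟩
  rw [h1, h2]
  exact sum_offDiag_pairs Uᶜ Φ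

/-- **Class form of the graph inequality (J2)**: on the class of `G0` with respect to the
pair `{u, w}`, from the two-row table inequality for the transported function. -/
theorem class_J2 {u w : Fin n} (huw : u ≠ w) (G0 : Omega d) (f : Omega d → ℝ)
    (hT : TableJ2 (rowU u w) (rowW u w)
      (fun x : Bip.Tab (H24.rF d {u, w} G0.1) (H24.cF d {u, w} G0.1) =>
        f ((H24.frozenEquiv {u, w} G0).symm x).1)) :
    ∑ G ∈ Gr.gcls {u, w} G0, (f G - Gr.gavg {u, w} f G) ^ 2
      + ∑ c ∈ ((univ : Finset (Fin n)).powersetCard 2).filter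
            (fun c => Disjoint ({u, w} : Finset (Fin n)) c),
          ∑ _G ∈ (Gr.gcls {u, w} G0).filter (fun G => Gr.IsAlt {u, w} c G.1),
            ((∑ G2 ∈ (Gr.gcls {u, w} G0).filter (fun G2 => Gr.IsAlt {u, w} c G2.1),
                (f G2 - Gr.gavg {u, w} f G2))
              / (((Gr.gcls {u, w} G0).filter (fun G2 => Gr.IsAlt {u, w} c G2.1)).card : ℝ)) ^ 2
      ≤ (1 / 4) * ∑ c ∈ ((univ : Finset (Fin n)).powersetCard 2).filter
            (fun c => Disjoint ({u, w} : Finset (Fin n)) c),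
          ∑ G ∈ Gr.gcls {u, w} G0, (f G - f (Gr.flip {u, w} c G)) ^ 2 := by
  set U : Finset (Fin n) := {u, w} with hU
  set e := H24.frozenEquiv U G0 with he
  set F : Bip.Tab (H24.rF d U G0.1) (H24.cF d U G0.1) → ℝ := fun x => f (e.symm x).1 with hFdef
  set i : RowT U := rowU u w with hi
  set i' : RowT U := rowW u w with hi'
  have hii : i ≠ i' := rowU_ne_rowW huw
  have hb : U.card = 2 := Finset.card_pair huw
  -- sums over the tables are sums over the class
  have hsub : ∀ g : Omega d → ℝ,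
      ∑ k : {G : Omega d // H24.SameFrozen U G0.1 G.1}, g k.1 = ∑ G ∈ Gr.gcls U G0, g G := by
    intro g
    exact (Finset.sum_subtype (Gr.gcls U G0) (fun G => Gr.Pair.mem_gcls_pair huw G0 G) g).symm
  have hFsum : ∀ g : Omega d → ℝ,
      ∑ x : Bip.Tab (H24.rF d U G0.1) (H24.cF d U G0.1), g (e.symm x).1
        = ∑ G ∈ Gr.gcls U G0, g G := by
    intro g
    rw [← hsub g]
    exact Equiv.sum_comp e.symm (fun k => g k.1)
  have hFsumP : ∀ (P : Omega d → Prop) (g : Omega d → ℝ),
      ∑ x ∈ univ.filter (fun x : Bip.Tab (H24.rF d U G0.1) (H24.cF d U G0.1) =>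
          P (e.symm x).1), g (e.symm x).1
        = ∑ G ∈ (Gr.gcls U G0).filter P, g G := by
    intro P g
    rw [Finset.sum_filter, Finset.sum_filter]
    exact hFsum (fun G => if P G then g G else 0)
  -- the pair class of a table is everything
  have hcls : ∀ x : Bip.Tab (H24.rF d U G0.1) (H24.cF d U G0.1), Bip.cls {i, i'} x = univ := by
    intro x
    unfold Bip.cls
    apply Finset.filter_true_of_mem
    intro y _ k hk
    exfalso
    apply hk
    have hk2 : (k.1 : Fin n) ∈ ({u, w} : Finset (Fin n)) := k.2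
    rw [mem_insert, mem_singleton] at hk2
    rw [mem_insert, mem_singleton]
    rcases hk2 with h | h
    · exact Or.inl (Subtype.ext h)
    · exact Or.inr (Subtype.ext h)
  have hcard : ((univ : Finset (Bip.Tab (H24.rF d U G0.1) (H24.cF d U G0.1))).card : ℝ)
      = ((Gr.gcls U G0).card : ℝ) := by
    have h1 := hFsum (fun _ => (1 : ℝ))
    simpa using h1
  have hmem : ∀ x : Bip.Tab (H24.rF d U G0.1) (H24.cF d U G0.1),
      (e.symm x).1 ∈ Gr.gcls U G0 :=
    fun x => (Gr.Pair.mem_gcls_pair huw G0 _).mpr (e.symm x).2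
  have havg : ∀ x : Bip.Tab (H24.rF d U G0.1) (H24.cF d U G0.1),
      Bip.avg {i, i'} F x = Gr.gavg U f (e.symm x).1 := by
    intro x
    rw [Bip.avg_apply, hcls x, hcard, Gr.gavg_apply, Gr.gcls_eq_of_mem U G0 _ (hmem x)]
    congr 1
    exact hFsum f
  have hx : ∀ x : Bip.Tab (H24.rF d U G0.1) (H24.cF d U G0.1),
      x.1 = rowOf U (e.symm x).1.1 := by
    intro x
    have := congrArg Subtype.val (e.apply_symm_apply x)
    rw [H24.frozenEquiv_apply] at this
    exact this.symm
  -- moved tables are the tables of the alternating graphs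
  have halt : ∀ (p q : ColT U), p ≠ q →
      ∀ x : Bip.Tab (H24.rF d U G0.1) (H24.cF d U G0.1),
        (Bip.Johnson.colSwapTab {i, i'} p q x ≠ x ↔ Gr.IsAlt U {p.1, q.1} (e.symm x).1.1) :=
    fun p q hpq x => moved_iff_isAlt huw _ x (hx x) p q hpq
  -- the column exchange is the flip
  have hflip : ∀ (p q : ColT U), p ≠ q →
      ∀ x : Bip.Tab (H24.rF d U G0.1) (H24.cF d U G0.1),
        (e.symm (Bip.Johnson.colSwapTab {i, i'} p q x)).1
          = Gr.flip U {p.1, q.1} (e.symm x).1 := by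
    intro p q hpq x
    have hc : ({p.1, q.1} : Finset (Fin n)).card = 2 := Finset.card_pair (col_val_ne hpq)
    have hd : Disjoint U {p.1, q.1} := disjoint_cols p q
    have hfm : Gr.flip U {p.1, q.1} (e.symm x).1 ∈ Gr.gcls U G0 := by
      rw [Gr.mem_gcls]
      exact ((Gr.mem_gcls U G0 _).mp (hmem x)).trans (Gr.gagree_flip_left U {p.1, q.1} _)
    have hfs : H24.SameFrozen U G0.1 (Gr.flip U {p.1, q.1} (e.symm x).1).1 :=
      (Gr.Pair.mem_gcls_pair huw G0 _).mp hfm
    have key : e ⟨Gr.flip U {p.1, q.1} (e.symm x).1, hfs⟩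
        = Bip.Johnson.colSwapTab {i, i'} p q x := by
      apply Subtype.ext
      rw [H24.frozenEquiv_apply]
      show rowOf U (Gr.flip U {p.1, q.1} (e.symm x).1).1 = _
      rw [Gr.flip_val hb hc hd]
      exact rowOf_flipSet huw _ x (hx x) p q hpq
    rw [← key, Equiv.symm_apply_apply]
  -- the variance term
  have hA : ∑ x, (F x - Bip.avg {i, i'} F x) ^ 2
      = ∑ G ∈ Gr.gcls U G0, (f G - Gr.gavg U f G) ^ 2 := by
    rw [← hFsum (fun G => (f G - Gr.gavg U f G) ^ 2)]
    exact Finset.sum_congr rfl (fun x _ => by rw [havg x])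
  -- the flip energies
  have hC : ∀ p q : ColT U, p ≠ q →
      ∑ x, (F x - F (Bip.Johnson.colSwapTab {i, i'} p q x)) ^ 2
        = ∑ G ∈ Gr.gcls U G0, (f G - f (Gr.flip U {p.1, q.1} G)) ^ 2 := by
    intro p q hpq
    rw [← hFsum (fun G => (f G - f (Gr.flip U {p.1, q.1} G)) ^ 2)]
    refine Finset.sum_congr rfl (fun x _ => ?_)
    show (f (e.symm x).1 - f (e.symm (Bip.Johnson.colSwapTab {i, i'} p q x)).1) ^ 2 = _
    rw [hflip p q hpq x]
  -- the mean terms
  have hB : ∀ p q : ColT U, p ≠ q →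
      ∑ x ∈ univ.filter (fun x : Bip.Tab (H24.rF d U G0.1) (H24.cF d U G0.1) =>
            Bip.Johnson.colSwapTab {i, i'} p q x ≠ x),
          ((∑ y ∈ (Bip.cls {i, i'} x).filter
              (fun y : Bip.Tab (H24.rF d U G0.1) (H24.cF d U G0.1) =>
                Bip.Johnson.colSwapTab {i, i'} p q y ≠ y),
              (F y - Bip.avg {i, i'} F y))
            / (((Bip.cls {i, i'} x).filter
              (fun y : Bip.Tab (H24.rF d U G0.1) (H24.cF d U G0.1) =>
                Bip.Johnson.colSwapTab {i, i'} p q y ≠ y)).card : ℝ)) ^ 2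
        = ∑ _G ∈ (Gr.gcls U G0).filter (fun G => Gr.IsAlt U {p.1, q.1} G.1),
            ((∑ G2 ∈ (Gr.gcls U G0).filter (fun G2 => Gr.IsAlt U {p.1, q.1} G2.1),
                (f G2 - Gr.gavg U f G2))
              / (((Gr.gcls U G0).filter (fun G2 => Gr.IsAlt U {p.1, q.1} G2.1)).card : ℝ))
              ^ 2 := by
    intro p q hpq
    have hfil : univ.filter (fun x : Bip.Tab (H24.rF d U G0.1) (H24.cF d U G0.1) =>
          Bip.Johnson.colSwapTab {i, i'} p q x ≠ x)
        = univ.filter (fun x : Bip.Tab (H24.rF d U G0.1) (H24.cF d U G0.1) =>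
          Gr.IsAlt U {p.1, q.1} (e.symm x).1.1) :=
      Finset.filter_congr (fun x _ => halt p q hpq x)
    have hin : ∀ x : Bip.Tab (H24.rF d U G0.1) (H24.cF d U G0.1),
        (Bip.cls {i, i'} x).filter
          (fun y : Bip.Tab (H24.rF d U G0.1) (H24.cF d U G0.1) =>
            Bip.Johnson.colSwapTab {i, i'} p q y ≠ y)
        = univ.filter (fun x : Bip.Tab (H24.rF d U G0.1) (H24.cF d U G0.1) =>
          Gr.IsAlt U {p.1, q.1} (e.symm x).1.1) := by
      intro x
      rw [hcls x, hfil]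
    have hsum : ∑ y ∈ univ.filter (fun x : Bip.Tab (H24.rF d U G0.1) (H24.cF d U G0.1) =>
          Gr.IsAlt U {p.1, q.1} (e.symm x).1.1), (F y - Bip.avg {i, i'} F y)
        = ∑ G2 ∈ (Gr.gcls U G0).filter (fun G2 => Gr.IsAlt U {p.1, q.1} G2.1),
            (f G2 - Gr.gavg U f G2) := by
      rw [← hFsumP (fun G => Gr.IsAlt U {p.1, q.1} G.1) (fun G => f G - Gr.gavg U f G)]
      exact Finset.sum_congr rfl (fun y _ => by rw [havg y])
    have hcardf : ((univ.filter (fun x : Bip.Tab (H24.rF d U G0.1) (H24.cF d U G0.1) =>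
          Gr.IsAlt U {p.1, q.1} (e.symm x).1.1)).card : ℝ)
        = (((Gr.gcls U G0).filter (fun G2 => Gr.IsAlt U {p.1, q.1} G2.1)).card : ℝ) := by
      have h1 := hFsumP (fun G => Gr.IsAlt U {p.1, q.1} G.1) (fun _ => (1 : ℝ))
      simpa using h1
    rw [hfil]
    have hterm : ∀ x : Bip.Tab (H24.rF d U G0.1) (H24.cF d U G0.1),
        ((∑ y ∈ (Bip.cls {i, i'} x).filter
              (fun y : Bip.Tab (H24.rF d U G0.1) (H24.cF d U G0.1) =>
                Bip.Johnson.colSwapTab {i, i'} p q y ≠ y),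
              (F y - Bip.avg {i, i'} F y))
            / (((Bip.cls {i, i'} x).filter
              (fun y : Bip.Tab (H24.rF d U G0.1) (H24.cF d U G0.1) =>
                Bip.Johnson.colSwapTab {i, i'} p q y ≠ y)).card : ℝ)) ^ 2
          = ((∑ G2 ∈ (Gr.gcls U G0).filter (fun G2 => Gr.IsAlt U {p.1, q.1} G2.1),
                (f G2 - Gr.gavg U f G2))
              / (((Gr.gcls U G0).filter (fun G2 => Gr.IsAlt U {p.1, q.1} G2.1)).card : ℝ))
              ^ 2 := by
      intro x
      rw [hin x, hsum, hcardf]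
    rw [Finset.sum_congr rfl (fun x _ => hterm x)]
    exact hFsumP (fun G => Gr.IsAlt U {p.1, q.1} G.1)
      (fun _ => ((∑ G2 ∈ (Gr.gcls U G0).filter (fun G2 => Gr.IsAlt U {p.1, q.1} G2.1),
                (f G2 - Gr.gavg U f G2))
              / (((Gr.gcls U G0).filter (fun G2 => Gr.IsAlt U {p.1, q.1} G2.1)).card : ℝ))
              ^ 2)
  -- assembling
  unfold TableJ2 at hT
  have hK : ∑ p : ColT U, ∑ q : ColT U, (if p = q then 0 else
        ∑ x ∈ univ.filter (fun x : Bip.Tab (H24.rF d U G0.1) (H24.cF d U G0.1) =>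
            Bip.Johnson.colSwapTab {i, i'} p q x ≠ x),
          ((∑ y ∈ (Bip.cls {i, i'} x).filter
              (fun y : Bip.Tab (H24.rF d U G0.1) (H24.cF d U G0.1) =>
                Bip.Johnson.colSwapTab {i, i'} p q y ≠ y),
              (F y - Bip.avg {i, i'} F y))
            / (((Bip.cls {i, i'} x).filter
              (fun y : Bip.Tab (H24.rF d U G0.1) (H24.cF d U G0.1) =>
                Bip.Johnson.colSwapTab {i, i'} p q y ≠ y)).card : ℝ)) ^ 2)
      = 2 * ∑ c ∈ ((univ : Finset (Fin n)).powersetCard 2).filter (fun c => Disjoint U c),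
          ∑ _G ∈ (Gr.gcls U G0).filter (fun G => Gr.IsAlt U c G.1),
            ((∑ G2 ∈ (Gr.gcls U G0).filter (fun G2 => Gr.IsAlt U c G2.1),
                (f G2 - Gr.gavg U f G2))
              / (((Gr.gcls U G0).filter (fun G2 => Gr.IsAlt U c G2.1)).card : ℝ)) ^ 2 := by
    rw [← sum_cols_pairs U (fun c => ∑ _G ∈ (Gr.gcls U G0).filter (fun G => Gr.IsAlt U c G.1),
            ((∑ G2 ∈ (Gr.gcls U G0).filter (fun G2 => Gr.IsAlt U c G2.1),
                (f G2 - Gr.gavg U f G2))
              / (((Gr.gcls U G0).filter (fun G2 => Gr.IsAlt U c G2.1)).card : ℝ)) ^ 2)]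
    refine Finset.sum_congr rfl (fun p _ => Finset.sum_congr rfl (fun q _ => ?_))
    by_cases hpq : p = q
    · rw [if_pos hpq, if_pos hpq]
    · rw [if_neg hpq, if_neg hpq, hB p q hpq]
  have hE : ∑ p : ColT U, ∑ q : ColT U, (if p = q then 0 else
        ∑ x, (F x - F (Bip.Johnson.colSwapTab {i, i'} p q x)) ^ 2)
      = 2 * ∑ c ∈ ((univ : Finset (Fin n)).powersetCard 2).filter (fun c => Disjoint U c),
          ∑ G ∈ Gr.gcls U G0, (f G - f (Gr.flip U c G)) ^ 2 := by
    rw [← sum_cols_pairs U (fun c => ∑ G ∈ Gr.gcls U G0, (f G - f (Gr.flip U c G)) ^ 2)]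
    refine Finset.sum_congr rfl (fun p _ => Finset.sum_congr rfl (fun q _ => ?_))
    by_cases hpq : p = q
    · rw [if_pos hpq, if_pos hpq]
    · rw [if_neg hpq, if_neg hpq, hC p q hpq]
  rw [hA, hK, hE] at hT
  linarith

end J2T

/-- **The graph inequality (J2) for the pair `{u, w}`**, from the two-row table inequality on
every class (transported along `H24.frozenEquiv`). -/
theorem graph_J2_pair {u w : Fin n} (huw : u ≠ w) (f : Omega d → ℝ)
    (hT : ∀ G0 : Omega d, J2T.TableJ2 (J2T.rowU u w) (J2T.rowW u w)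
      (fun x : Bip.Tab (H24.rF d {u, w} G0.1) (H24.cF d {u, w} G0.1) =>
        f ((H24.frozenEquiv {u, w} G0).symm x).1)) :
    Bip.ip (f - Gr.gavg {u, w} f) (f - Gr.gavg {u, w} f)
      + ∑ c ∈ ((univ : Finset (Fin n)).powersetCard 2).filter
            (fun c => Disjoint ({u, w} : Finset (Fin n)) c),
          Gr.kap {u, w} c (f - Gr.gavg {u, w} f)
      ≤ (1 / 4) * ∑ c ∈ ((univ : Finset (Fin n)).powersetCard 2).filter
            (fun c => Disjoint ({u, w} : Finset (Fin n)) c), Gr.fenergy {u, w} c f := by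
  set U : Finset (Fin n) := {u, w} with hU
  have hL : Bip.ip (f - Gr.gavg U f) (f - Gr.gavg U f)
      + ∑ c ∈ ((univ : Finset (Fin n)).powersetCard 2).filter (fun c => Disjoint U c),
          Gr.kap U c (f - Gr.gavg U f)
      = ∑ G : Omega d, ((f G - Gr.gavg U f G) ^ 2
          + ∑ c ∈ ((univ : Finset (Fin n)).powersetCard 2).filter (fun c => Disjoint U c),
              (if Gr.IsAlt U c G.1 then
                ((∑ G2 ∈ Gr.altCls U c G, (f - Gr.gavg U f) G2)
                  / ((Gr.altCls U c G).card : ℝ)) ^ 2 else 0)) := by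
    rw [Finset.sum_add_distrib]
    congr 1
    · unfold Bip.ip
      refine Finset.sum_congr rfl (fun G _ => ?_)
      rw [Pi.sub_apply]
      ring
    · rw [Finset.sum_comm]
      refine Finset.sum_congr rfl (fun c _ => ?_)
      unfold Gr.kap
      rw [Finset.sum_filter]
  have hR : (1 / 4) * ∑ c ∈ ((univ : Finset (Fin n)).powersetCard 2).filter
        (fun c => Disjoint U c), Gr.fenergy U c f
      = ∑ G : Omega d, (1 / 4) * ∑ c ∈ ((univ : Finset (Fin n)).powersetCard 2).filter
          (fun c => Disjoint U c), (f G - f (Gr.flip U c G)) ^ 2 := by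
    rw [← Finset.mul_sum, Finset.sum_comm]
    rfl
  rw [hL, hR]
  apply Gr.Pair.sum_le_of_classes (Gr.gcls U) (Gr.self_mem_gcls U)
    (fun a b hb => Gr.gcls_eq_of_mem U a b hb)
  intro G0
  have hcl := J2T.class_J2 huw G0 f (hT G0)
  have e1 : ∑ G ∈ Gr.gcls U G0, ((f G - Gr.gavg U f G) ^ 2
          + ∑ c ∈ ((univ : Finset (Fin n)).powersetCard 2).filter (fun c => Disjoint U c),
              (if Gr.IsAlt U c G.1 then
                ((∑ G2 ∈ Gr.altCls U c G, (f - Gr.gavg U f) G2)
                  / ((Gr.altCls U c G).card : ℝ)) ^ 2 else 0))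
      = ∑ G ∈ Gr.gcls U G0, (f G - Gr.gavg U f G) ^ 2
        + ∑ c ∈ ((univ : Finset (Fin n)).powersetCard 2).filter (fun c => Disjoint U c),
          ∑ _G ∈ (Gr.gcls U G0).filter (fun G => Gr.IsAlt U c G.1),
            ((∑ G2 ∈ (Gr.gcls U G0).filter (fun G2 => Gr.IsAlt U c G2.1),
                (f G2 - Gr.gavg U f G2))
              / (((Gr.gcls U G0).filter (fun G2 => Gr.IsAlt U c G2.1)).card : ℝ)) ^ 2 := by
    rw [Finset.sum_add_distrib, Finset.sum_comm]
    congr 1
    refine Finset.sum_congr rfl (fun c _ => ?_)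
    rw [Finset.sum_filter]
    refine Finset.sum_congr rfl (fun G hG => ?_)
    have hac : Gr.altCls U c G = (Gr.gcls U G0).filter (fun G2 => Gr.IsAlt U c G2.1) := by
      unfold Gr.altCls
      rw [Gr.gcls_eq_of_mem U G0 G hG]
    rw [hac]
    rfl
  have e2 : ∑ G ∈ Gr.gcls U G0, (1 / 4) * ∑ c ∈ ((univ : Finset (Fin n)).powersetCard 2).filter
          (fun c => Disjoint U c), (f G - f (Gr.flip U c G)) ^ 2
      = (1 / 4) * ∑ c ∈ ((univ : Finset (Fin n)).powersetCard 2).filter
            (fun c => Disjoint U c),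
          ∑ G ∈ Gr.gcls U G0, (f G - f (Gr.flip U c G)) ^ 2 := by
    rw [← Finset.mul_sum, Finset.sum_comm]
  rw [e1, e2]
  exact hcl

/-- **The graph inequality (J2)** for a two-element vertex set `b`, from the two-row table
inequality on every class of every pair. -/
theorem graph_J2_of (b : Finset (Fin n)) (hb : b.card = 2) (f : Omega d → ℝ)
    (hT : ∀ u w : Fin n, u ≠ w → ∀ G0 : Omega d,
      J2T.TableJ2 (J2T.rowU u w) (J2T.rowW u w)
        (fun x : Bip.Tab (H24.rF d {u, w} G0.1) (H24.cF d {u, w} G0.1) =>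
          f ((H24.frozenEquiv {u, w} G0).symm x).1)) :
    Bip.ip (f - Gr.gavg b f) (f - Gr.gavg b f)
      + ∑ c ∈ ((univ : Finset (Fin n)).powersetCard 2).filter (fun c => Disjoint b c),
          Gr.kap b c (f - Gr.gavg b f)
      ≤ (1 / 4) * ∑ c ∈ ((univ : Finset (Fin n)).powersetCard 2).filter
            (fun c => Disjoint b c), Gr.fenergy b c f := by
  obtain ⟨u, w, huw, rfl⟩ := Finset.card_eq_two.mp hb
  exact graph_J2_pair huw f (hT u w huw)

end Vale.Agent.Lib.P335.H23
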